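import Vale.Agent.P181.Q.Top

set_option autoImplicit false

open Vale.Agent.P181 Vale.Agent.P181.H280

namespace Vale.Agent.Results.P181.BulkAllPairs

/-- **Foulkes' inequality in the bulk, for all pairs with `b ≥ C(δ) a`.** Let `0 < δ ≤ 1` and let
`b ≥ 10^12 a / δ^4`, or `a ≥ 10^12 / δ^4` and `b ≥ 10^4 a / δ`; let `V = ℂ^(n+1)`.

(1) There is one linear map `Ψ : Sym^a(Sym^b V) → Sym^b(Sym^a V)`, commuting with all matrices,
which is injective on the highest weight vectors of weight `λ` for every `λ` all of whose entries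
are at most `(2 - δ) b`, and for every `λ` whose first `a` entries are at least `δ b`; for all these
`λ` Foulkes' inequality holds for `(a, b)`.

(2) Foulkes' inequality holds for `(a, b + k)` and every `λ` with `λ_i ≤ b` for `i ≥ 1` and either
`λ_0 ≤ (2 - δ) b + a k`, or `λ_0 ≥ a k + δ b` and `λ_i ≥ δ b` for `1 ≤ i < a`. -/
theorem result (δ : ℝ) (hδ : 0 < δ) (hδ1 : δ ≤ 1) (a b n : ℕ)
    (hab : 10 ^ 12 * (a : ℝ) ≤ δ ^ 4 * b ∨
      (10 ^ 12 ≤ δ ^ 4 * (a : ℝ) ∧ 10 ^ 4 * (a : ℝ) ≤ δ * b)) :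
    (∃ Ψ : Pleth a b (n + 1) →ₗ[ℂ] Pleth b a (n + 1), IsEquivariant Ψ ∧
      ∀ lam : Fin (n + 1) → ℕ, ((∀ i, (lam i : ℝ) ≤ (2 - δ) * b) ∨
          (a ≤ n + 1 ∧ ∀ i : Fin (n + 1), (i : ℕ) < a → δ * b ≤ (lam i : ℝ))) →
        InjOnHW Ψ lam ∧ plethMult a b (n + 1) lam ≤ plethMult b a (n + 1) lam) ∧
    ∀ (k : ℕ) (lam : Fin (n + 1) → ℕ), (∀ i, i ≠ 0 → lam i ≤ b) →
      ((lam 0 : ℝ) ≤ (2 - δ) * b + a * k ∨ (a ≤ n + 1 ∧ a * k + δ * b ≤ (lam 0 : ℝ) ∧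
        ∀ i : Fin (n + 1), i ≠ 0 → (i : ℕ) < a → δ * b ≤ (lam i : ℝ))) →
      plethMult a (b + k) (n + 1) lam ≤ plethMult (b + k) a (n + 1) lam := by
  have hW : Q.Wide δ a b := by
    have hδ4 : (0 : ℝ) < δ ^ 4 := by positivity
    rcases hab with h | ⟨h1, h2⟩
    · apply Q.wide_of hδ hδ1
      rw [div_mul_eq_mul_div, div_le_iff₀ hδ4]
      linarith
    · right
      constructor
      · rw [div_le_iff₀ hδ4]
        linarith
      · rw [div_mul_eq_mul_div, div_le_iff₀ hδ]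
        linarith
  exact ⟨Q.all_pairs hδ hδ1 hW (n + 1), fun k lam h1 h2 => Q.all_pairs_prop hδ hδ1 hW n k lam h1 h2⟩

end Vale.Agent.Results.P181.BulkAllPairs
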