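import Vale.Agent.P181.H179.Near

set_option autoImplicit false

open Vale.Agent.P181.H280 Vale.Agent.P181.H179

namespace Vale.Agent.Results.P181.NearStable

/-- **Foulkes' inequality in the near-stable range.** `V = ℂ^(n+1)`, `a ≥ 1` and `b` are
arbitrary, `lam = (lam_0, lam_1, …, lam_n)` is any weight of `GL_{n+1}`.

If `lam_i + (lam_1 + ⋯ + lam_n) ≤ 2 b + 1` for every `i ≥ 1` (for a partition, in the usual
numbering: `2 lam_2 + lam_3 + lam_4 + ⋯ ≤ 2 b + 1`), then

(1) `mult_lam Sym^a(Sym^b V) ≤ mult_lam Sym^b(Sym^a V)`;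

(2) the multiplicity in `Sym^b(Sym^a V)` does not change when `b` is replaced by `b + d` and
`lam_0` by `lam_0 + a d`. -/
theorem result (a b n : ℕ) (ha : 1 ≤ a) (lam : Fin (n + 1) → ℕ)
    (h : ∀ i, i ≠ 0 → lam i + ∑ k : Fin n, lam k.succ ≤ 2 * b + 1) :
    plethMult a b (n + 1) lam ≤ plethMult b a (n + 1) lam ∧
    ∀ d : ℕ, plethMult (b + d) a (n + 1) (Function.update lam 0 (lam 0 + a * d)) =
      plethMult b a (n + 1) lam := by
  obtain ⟨a', rfl⟩ : ∃ a', a = a' + 1 := ⟨a - 1, by omega⟩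
  have hN : ∑ k : Fin n, lam k.succ < 2 * (b + 1) := by
    rcases Nat.eq_zero_or_pos n with hn | hn
    · subst hn
      simp
    · have h1 := h (Fin.succ ⟨0, hn⟩) (Fin.succ_ne_zero _)
      omega
  have hl : ∀ k, k ≠ 0 → lam k + ∑ k : Fin n, lam k.succ < 2 * (b + 1) :=
    fun k hk => by have := h k hk; omega
  exact ⟨stable a' b ((a' + 1 - 1) ^ 2) (Nat.le_add_left _ _) lam hN hl,
    right_const a' b lam hN hl⟩

end Vale.Agent.Results.P181.NearStable
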