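import Vale.Agent.P181.H179.P10
import Vale.Agent.P181.H530.F3
import Vale.Agent.P181.GP.Final
import Vale.Agent.P181.LK.Head

set_option autoImplicit false

open Vale.Agent.P181 Vale.Agent.P181.H280 Vale.Agent.P181.H179 Vale.Agent.P181.H530

namespace Vale.Agent.Results.P181.PowerMapBulk

/-- **Foulkes' inequality for almost all partitions.**

(H) For all sufficiently large `a` and all `b` with `10^8 a log^2 a ≤ b ≤ a^(8/7)` there is one
linear map `Ψ : Sym^a(Sym^b ℂ^a) → Sym^b(Sym^a ℂ^a)`, commuting with all matrices, such that for all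
but at most a proportion `1/a` of the partitions `λ` of `a b` with at most `a` parts `Ψ` is
injective on the highest weight vectors of weight `λ` and Foulkes' inequality holds for `(a, b)` and
`λ`.

(0) For every `q ≥ 1` and all sufficiently large `a` there is one linear map
`Ψ : Sym^a(Sym^{qa} ℂ^a) → Sym^{qa}(Sym^a ℂ^a)`, commuting with all matrices, such that for all but
at most a proportion `exp(-a^(1/15))` of the partitions `λ` of `q a^2` with at most `a` parts `Ψ` is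
injective on the highest weight vectors of weight `λ` and Foulkes' inequality holds for `(a, q a)`
and `λ`.

Now let `a, q ≥ 1` and `V = ℂ^(n+1)`.

(0') If `a ≥ 3`, `s ≥ 1` and `14000 s^14 q^5 log a ≤ a` then there is one such `Ψ` for which the
proportion of the exceptional partitions is at most `(q a^2 + 1) / 2^⌊s/4⌋`.

(0'') Let `a ≥ 2`, `s ≥ 1`, `q ≥ 43680 (s + 1)^2`, `0 ≤ u < a`, `10^6 s^13 q^6 log a ≤ a` and
`b = q a + u`. There is one linear map `Ψ : Sym^a(Sym^b ℂ^a) → Sym^b(Sym^a ℂ^a)`, commuting with all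
matrices, such that for all but at most a proportion `(a b + 17) / 2^⌊s/4⌋` of the partitions `λ` of
`a b` with at most `a` parts `Ψ` is injective on the highest weight vectors of weight `λ` and
Foulkes' inequality holds for `(a, b)` and `λ`.

Let `θ` satisfy `a (a - 1) (q - 1) (q^2 - 1)^θ < q^(2θ)`, or `a ≥ 38`, `q ≤ a` and
`θ ≥ 8 q log(2 a^2 q)`.

(1) There is one linear map `Ψ : Sym^a(Sym^{qa} V) → Sym^{qa}(Sym^a V)`, commuting with all
matrices, which is injective on the highest weight vectors of weight `λ` for every `λ` all of whose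
entries are at most `2 q a - θ`; for all these `λ` Foulkes' inequality holds for `(a, q a)`.

(2) Foulkes' inequality holds for `(a, q a + k)` and every `λ` with `λ_0 ≤ 2 q a + a k - θ` and
`λ_i ≤ 2 q a - θ`, `λ_i ≤ q a` for `i ≥ 1`.

(3) Let `q ≥ 2`, `1 ≤ s < a ≤ n + 1`, `b = q a + s`, `2 a (a - 1) (q - 1) (q^2 - 1)^θ < q^(2θ)` and,
with `M = a - min (s, ⌈a/2⌉)`, `2 a q s (q - 1)^M < q^M`. There is one linear map
`Ψ : Sym^a(Sym^b V) → Sym^b(Sym^a V)`, commuting with all matrices, which is injective on the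
highest weight vectors of weight `λ` for every `λ` whose first `a` entries are at least
`a + s + (s - ⌈a/2⌉)_+ - 1` and which has either all entries at most `2 q a - θ` or its first `a`
entries at least `θ + 2 s`; for all these `λ` Foulkes' inequality holds for `(a, b)`.

(4) Let either `s ≥ 1`, `a ≥ 1400 s^12 q^4` and `M ≥ 14000 s^14 q^6 log a`, or `s = 2`, `a ≥ 7` and
`M ≥ 8000 q^4 log(10 a q)`. There is one linear map
`Ψ : Sym^a(Sym^{qa} V) → Sym^{qa}(Sym^a V)`, commuting with all matrices, which is injective on the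
highest weight vectors of weight `λ` for every `λ` all of whose entries are at most
`(s + 1) q a - M` and for every `λ` whose first `a - s + 1` entries are at least `M`; for all these
`λ` Foulkes' inequality holds for `(a, q a)`. Foulkes' inequality holds for `(a, q a + k)` and every
`λ` with `λ_i ≤ q a` for `i ≥ 1` and either `λ_0 ≤ (s + 1) q a + a k - M`,
`λ_i ≤ (s + 1) q a - M` for `i ≥ 1`, or `λ_0 ≥ a k + M`, `λ_i ≥ M` for `0 < i ≤ a - s`.

(5) Let `a ≥ 2`, `s ≥ 1`, `q ≥ 60 (s + 1)`, `0 ≤ u < a`, `10^6 s^13 q^6 log a ≤ a`,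
`X ≥ 30000 s^14 q^6 log a`, `d = ⌊a / (40 (s + 1))⌋`, `n + 1 ≥ a - d` and `b = q a + u`. There is
one linear map `Ψ : Sym^a(Sym^b V) → Sym^b(Sym^a V)`, commuting with all matrices, which is
injective on the highest weight vectors of weight `λ` for every `λ` all of whose entries are at most
`(s + 1) q a - X` and whose first `a - d` entries are at least `25 (s + 1) a`; for all these `λ`
Foulkes' inequality holds for `(a, b)`. -/
theorem result :
    (∀ᶠ a : ℕ in Filter.atTop, ∀ b : ℕ, (10 : ℝ) ^ 8 * (a : ℝ) * (Real.log a) ^ 2 ≤ b →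
      (b : ℝ) ≤ (a : ℝ) ^ ((8 : ℝ) / 7) →
      ∃ Ψ : Pleth a b a →ₗ[ℂ] Pleth b a a, IsEquivariant Ψ ∧
        a * {lam : Fin a → ℕ | Antitone lam ∧ ∑ i, lam i = a * b ∧
            ¬ (InjOnHW Ψ lam ∧ plethMult a b a lam ≤ plethMult b a a lam)}.ncard ≤
          {lam : Fin a → ℕ | Antitone lam ∧ ∑ i, lam i = a * b}.ncard) ∧
    (∀ q : ℕ, 1 ≤ q → ∀ᶠ a : ℕ in Filter.atTop,
      ∃ Ψ : Pleth a (q * a) a →ₗ[ℂ] Pleth (q * a) a a, IsEquivariant Ψ ∧
        ({lam : Fin a → ℕ | Antitone lam ∧ ∑ i, lam i = a * (q * a) ∧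
            ¬ (InjOnHW Ψ lam ∧
              plethMult a (q * a) a lam ≤ plethMult (q * a) a a lam)}.ncard : ℝ) ≤
          Real.exp (-(a : ℝ) ^ ((1 : ℝ) / 15)) *
            ({lam : Fin a → ℕ | Antitone lam ∧ ∑ i, lam i = a * (q * a)}.ncard : ℝ)) ∧
    ∀ a q θ n : ℕ, 1 ≤ q →
    (∀ s : ℕ, 1 ≤ s → 3 ≤ a → 14000 * (s : ℝ) ^ 14 * (q : ℝ) ^ 5 * Real.log a ≤ a →
      ∃ Ψ : Pleth a (q * a) a →ₗ[ℂ] Pleth (q * a) a a, IsEquivariant Ψ ∧
        {lam : Fin a → ℕ | Antitone lam ∧ ∑ i, lam i = a * (q * a) ∧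
            ¬ (InjOnHW Ψ lam ∧
              plethMult a (q * a) a lam ≤ plethMult (q * a) a a lam)}.ncard * 2 ^ (s / 4) ≤
          (a * (q * a) + 1) *
            {lam : Fin a → ℕ | Antitone lam ∧ ∑ i, lam i = a * (q * a)}.ncard) ∧
    (∀ s u b : ℕ, 2 ≤ a → 1 ≤ s → 43680 * (s + 1) ^ 2 ≤ q → u < a → b = q * a + u →
      (10 : ℝ) ^ 6 * (s : ℝ) ^ 13 * (q : ℝ) ^ 6 * Real.log a ≤ a →
      ∃ Ψ : Pleth a b a →ₗ[ℂ] Pleth b a a, IsEquivariant Ψ ∧
        {lam : Fin a → ℕ | Antitone lam ∧ ∑ i, lam i = a * b ∧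
            ¬ (InjOnHW Ψ lam ∧
              plethMult a b a lam ≤ plethMult b a a lam)}.ncard * 2 ^ (s / 4) ≤
          (a * b + 17) * {lam : Fin a → ℕ | Antitone lam ∧ ∑ i, lam i = a * b}.ncard) ∧
    ((a * (a - 1) * (q - 1) * (q ^ 2 - 1) ^ θ < q ^ (2 * θ) ∨
        (38 ≤ a ∧ q ≤ a ∧ 8 * (q : ℝ) * Real.log (2 * (a : ℝ) ^ 2 * q) ≤ θ)) →
      (∃ Ψ : Pleth a (q * a) (n + 1) →ₗ[ℂ] Pleth (q * a) a (n + 1), IsEquivariant Ψ ∧
        ∀ lam : Fin (n + 1) → ℕ, (∀ i, lam i + θ ≤ 2 * (q * a)) →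
          InjOnHW Ψ lam ∧
            plethMult a (q * a) (n + 1) lam ≤ plethMult (q * a) a (n + 1) lam) ∧
      ∀ (k : ℕ) (lam : Fin (n + 1) → ℕ), lam 0 + θ ≤ 2 * (q * a) + a * k →
        (∀ i, i ≠ 0 → lam i + θ ≤ 2 * (q * a) ∧ lam i ≤ q * a) →
        plethMult a (q * a + k) (n + 1) lam ≤ plethMult (q * a + k) a (n + 1) lam) ∧
    (∀ s : ℕ, 2 ≤ q → 1 ≤ s → s < a → a ≤ n + 1 →
      2 * (a * (a - 1) * (q - 1)) * (q ^ 2 - 1) ^ θ < q ^ (2 * θ) →
      2 * (a * q * s) * (q - 1) ^ (a - min s ((a + 1) / 2)) <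
        q ^ (a - min s ((a + 1) / 2)) →
      ∃ Ψ : Pleth a (q * a + s) (n + 1) →ₗ[ℂ] Pleth (q * a + s) a (n + 1), IsEquivariant Ψ ∧
        ∀ lam : Fin (n + 1) → ℕ,
          ((∀ i, lam i + θ ≤ 2 * (q * a)) ∨
            ∀ i : Fin (n + 1), (i : ℕ) < a → θ + 2 * s ≤ lam i) →
          (∀ i : Fin (n + 1), (i : ℕ) < a → a + s + (s - (a + 1) / 2) ≤ lam i + 1) →
          InjOnHW Ψ lam ∧
            plethMult a (q * a + s) (n + 1) lam ≤ plethMult (q * a + s) a (n + 1) lam) ∧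
    (∀ s u X : ℕ, 2 ≤ a → 1 ≤ s → 60 * (s + 1) ≤ q → u < a →
      (10 : ℝ) ^ 6 * (s : ℝ) ^ 13 * (q : ℝ) ^ 6 * Real.log a ≤ a →
      30000 * (s : ℝ) ^ 14 * (q : ℝ) ^ 6 * Real.log a ≤ X → a ≤ n + 1 + a / (40 * (s + 1)) →
      ∃ Ψ : Pleth a (q * a + u) (n + 1) →ₗ[ℂ] Pleth (q * a + u) a (n + 1), IsEquivariant Ψ ∧
        ∀ lam : Fin (n + 1) → ℕ, (∀ i, lam i + X ≤ (s + 1) * (q * a)) →
          (∀ i : Fin (n + 1), (i : ℕ) + 1 + a / (40 * (s + 1)) ≤ a →
            25 * (s + 1) * a ≤ lam i) →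
          InjOnHW Ψ lam ∧
            plethMult a (q * a + u) (n + 1) lam ≤ plethMult (q * a + u) a (n + 1) lam) ∧
    ∀ s M : ℕ, 1 ≤ s →
      ((1400 * s ^ 12 * q ^ 4 ≤ a ∧
          14000 * (s : ℝ) ^ 14 * (q : ℝ) ^ 6 * Real.log a ≤ M) ∨
        (s = 2 ∧ 7 ≤ a ∧ 8000 * (q : ℝ) ^ 4 * Real.log (10 * a * q) ≤ M)) →
      (∃ Ψ : Pleth a (q * a) (n + 1) →ₗ[ℂ] Pleth (q * a) a (n + 1), IsEquivariant Ψ ∧
        ∀ lam : Fin (n + 1) → ℕ, ((∀ i, lam i + M ≤ (s + 1) * (q * a)) ∨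
            (a ≤ n + s ∧ ∀ i : Fin (n + 1), (i : ℕ) + s ≤ a → M ≤ lam i)) →
          InjOnHW Ψ lam ∧
            plethMult a (q * a) (n + 1) lam ≤ plethMult (q * a) a (n + 1) lam) ∧
      ∀ (k : ℕ) (lam : Fin (n + 1) → ℕ), (∀ i, i ≠ 0 → lam i ≤ q * a) →
        ((lam 0 + M ≤ (s + 1) * (q * a) + a * k ∧ ∀ i, i ≠ 0 → lam i + M ≤ (s + 1) * (q * a)) ∨
          (a ≤ n + s ∧ a * k + M ≤ lam 0 ∧
            ∀ i : Fin (n + 1), i ≠ 0 → (i : ℕ) + s ≤ a → M ≤ lam i)) →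
        plethMult a (q * a + k) (n + 1) lam ≤ plethMult (q * a + k) a (n + 1) lam :=
  ⟨LK.headLK, fun q hq => (GP.almost_all GP.gpm hq).mono (fun a ha => ⟨powMap a q (Fin a → ℂ),
      fun g x => LinearMap.congr_fun (powMap_equivariant a q (Matrix.toLin' g)) x, ha⟩),
    fun a q _ n hq => ⟨fun _ hs ha h => ⟨powMap a q (Fin a → ℂ),
        fun g x => LinearMap.congr_fun (powMap_equivariant a q (Matrix.toLin' g)) x,
        GP.almost_count GP.gpm hs hq ha h⟩,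
      fun _ _ _ ha2 hs hq2 hu hb ha => LK.almost_countLK LK.numLK ha2 hs hq2 hu hb ha,
      fun hθ => ⟨⟨powMap a q (Fin (n + 1) → ℂ),
        fun g x => LinearMap.congr_fun (powMap_equivariant a q (Matrix.toLin' g)) x,
        fun lam hlam => ⟨fun x hx h0 => powMap_bulk' hq hθ lam hlam x hx h0,
          bulk' hq hθ lam hlam⟩⟩,
        fun _ lam h0 h1 => bulk_prop' hq hθ lam h0 (fun i hi => (h1 i hi).1)
          (fun i hi => (h1 i hi).2)⟩,
      fun _ hq2 hs hsa han h1 h2 => bulk_all' hq2 hs hsa han h1 h2,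
      fun _ _ _ ha2 hs hq2 hu ha hX hn => LK.lk LK.numLK ha2 hs hq2 hu ha hX hn,
      fun _ _ hs hM => ⟨⟨powMap a q (Fin (n + 1) → ℂ),
        fun g x => LinearMap.congr_fun (powMap_equivariant a q (Matrix.toLin' g)) x,
        fun lam hlam => GP.top_main GP.gpm hs hq hM lam hlam⟩,
        fun k lam h1 h2 => GP.top_prop GP.gpm hs hq hM k lam h1 h2⟩⟩⟩

end Vale.Agent.Results.P181.PowerMapBulk
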