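import Vale.Agent.P181.H54.Propagate

set_option autoImplicit false

open Vale.Agent.P181.H54 Vale.Agent.P181.H280

namespace Vale.Agent.Results.P181.SmallSecondRow

/-- **Foulkes' conjecture for partitions with a short second row.** Let `V = ℂ^(m+1)`; write
`addFirst lam k` for `lam` with `k` added to its first entry.

1. For `a ≤ b` Foulkes' inequality holds for every `lam` all of whose entries but the first are at
   most `a` (no condition on the first row, nor on the number of rows).
2. More generally, Foulkes' inequality for `(a, B)` and `lam` implies the one for `(a, B + k)` and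
   `addFirst lam (a * k)` whenever all entries of `lam` but the first are at most `B`.
3. For `q ≥ 2`, `a ≥ 2` and every `k`, Foulkes' inequality holds for `(a, q a + k)` and
   `addFirst lam (a * k)` whenever the first `a` entries of `lam` are at least `2q - 3` and all its
   entries but the first are at most `q a`. -/
theorem result :
    (∀ (a b m : ℕ), a ≤ b → ∀ lam : Fin (m + 1) → ℕ, (∀ i, i ≠ 0 → lam i ≤ a) →
      plethMult a b (m + 1) lam ≤ plethMult b a (m + 1) lam) ∧
    (∀ (a B k m : ℕ) (lam : Fin (m + 1) → ℕ), (∀ i, i ≠ 0 → lam i ≤ B) →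
      plethMult a B (m + 1) lam ≤ plethMult B a (m + 1) lam →
      plethMult a (B + k) (m + 1) (addFirst lam (a * k)) ≤
        plethMult (B + k) a (m + 1) (addFirst lam (a * k))) ∧
    (∀ (a q k m : ℕ), 2 ≤ a → 2 ≤ q → a ≤ m + 1 → ∀ lam : Fin (m + 1) → ℕ,
      (∀ i, i ≠ 0 → lam i ≤ q * a) → (∀ i : Fin (m + 1), (i : ℕ) < a → 2 * q ≤ lam i + 3) →
      plethMult a (q * a + k) (m + 1) (addFirst lam (a * k)) ≤
        plethMult (q * a + k) a (m + 1) (addFirst lam (a * k))) := by
  refine ⟨fun a b m hab lam hlam => foulkes_secondRow a b hab lam hlam,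
    fun a B k m lam hlam h => ?_, fun a q k m ha hq ham lam hlam htall => ?_⟩
  · exact (plethMult_stab_iter a B lam hlam k).trans (h.trans (plethMult_mono_iter a B lam k))
  · exact (plethMult_stab_iter a (q * a) lam hlam k).trans
      ((plethMult_le ha hq ham lam htall).trans (plethMult_mono_iter a (q * a) lam k))

end Vale.Agent.Results.P181.SmallSecondRow
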